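import Mathlib

namespace Vale.Agent.Results.P256.Products

open MvPolynomial

/-- The univariate polynomial `t ↦ p (t • e - x)`. -/
noncomputable def lineRestriction {n : ℕ} (p : MvPolynomial (Fin n) ℝ) (e x : Fin n → ℝ) :
    Polynomial ℝ :=
  MvPolynomial.aeval (fun i => Polynomial.C (e i) * Polynomial.X - Polynomial.C (x i)) p

/-- `p` is hyperbolic with respect to `e`: homogeneous, `p e > 0`, and for every real `x`
all complex roots of `t ↦ p (t • e - x)` are real. -/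
def IsHyperbolic {n : ℕ} (p : MvPolynomial (Fin n) ℝ) (e : Fin n → ℝ) : Prop :=
  (∃ d : ℕ, p.IsHomogeneous d) ∧ 0 < MvPolynomial.eval e p ∧
    ∀ x : Fin n → ℝ, ∀ z : ℂ, Polynomial.aeval z (lineRestriction p e x) = 0 → z.im = 0

/-- The closed hyperbolicity cone `K(p,e)`: all roots of `t ↦ p (t • e - x)` are `≥ 0`. -/
def cone {n : ℕ} (p : MvPolynomial (Fin n) ℝ) (e : Fin n → ℝ) : Set (Fin n → ℝ) :=
  {x | ∀ t : ℝ, (lineRestriction p e x).IsRoot t → 0 ≤ t}

/-- Spectrahedral shadows in `ℝ^n`: sets `{x | ∃ u, A0 + ∑ x_i A_i + ∑ u_j B_j ⪰ 0}` with real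
symmetric matrices of one finite size (rows/columns indexed by a finite type `ι`, auxiliary
variables by a finite type `κ`). -/
def IsSpectrahedralShadow {n : ℕ} (S : Set (Fin n → ℝ)) : Prop :=
  ∃ (ι κ : Type) (_ : Fintype ι) (_ : DecidableEq ι) (_ : Fintype κ)
    (A0 : Matrix ι ι ℝ) (A : Fin n → Matrix ι ι ℝ) (B : κ → Matrix ι ι ℝ),
    A0.IsSymm ∧ (∀ i, (A i).IsSymm) ∧ (∀ j, (B j).IsSymm) ∧
    S = {x | ∃ u : κ → ℝ, (A0 + ∑ i, x i • A i + ∑ j, u j • B j).PosSemidef}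

theorem lineRestriction_mul {n : ℕ} (p q : MvPolynomial (Fin n) ℝ) (e x : Fin n → ℝ) :
    lineRestriction (p * q) e x = lineRestriction p e x * lineRestriction q e x := by
  unfold lineRestriction
  exact map_mul _ _ _

theorem cone_mul {n : ℕ} (p q : MvPolynomial (Fin n) ℝ) (e : Fin n → ℝ) :
    cone (p * q) e = cone p e ∩ cone q e := by
  ext x
  simp only [cone, Set.mem_ofPred_eq, Set.mem_inter_iff, lineRestriction_mul, Polynomial.root_mul]
  constructor
  · intro h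
    exact ⟨fun t ht => h t (Or.inl ht), fun t ht => h t (Or.inr ht)⟩
  · rintro ⟨h1, h2⟩ t (ht | ht)
    · exact h1 t ht
    · exact h2 t ht

theorem hyperbolic_mul {n : ℕ} (p q : MvPolynomial (Fin n) ℝ) (e : Fin n → ℝ)
    (hp : IsHyperbolic p e) (hq : IsHyperbolic q e) : IsHyperbolic (p * q) e := by
  obtain ⟨⟨d1, hd1⟩, hpe, hpr⟩ := hp
  obtain ⟨⟨d2, hd2⟩, hqe, hqr⟩ := hq
  refine ⟨⟨d1 + d2, hd1.mul hd2⟩, ?_, ?_⟩
  · rw [map_mul]; exact mul_pos hpe hqe
  · intro x z hz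
    rw [lineRestriction_mul, map_mul, mul_eq_zero] at hz
    rcases hz with hz | hz
    · exact hpr x z hz
    · exact hqr x z hz

theorem hyperbolic_of_mul {n : ℕ} (p q : MvPolynomial (Fin n) ℝ) (e : Fin n → ℝ)
    (hph : ∃ d : ℕ, p.IsHomogeneous d) (hqh : ∃ d : ℕ, q.IsHomogeneous d)
    (hpe : 0 < MvPolynomial.eval e p) (hqe : 0 < MvPolynomial.eval e q)
    (h : IsHyperbolic (p * q) e) : IsHyperbolic p e ∧ IsHyperbolic q e := by
  obtain ⟨-, -, hr⟩ := h
  refine ⟨⟨hph, hpe, fun x z hz => hr x z ?_⟩, ⟨hqh, hqe, fun x z hz => hr x z ?_⟩⟩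
  · rw [lineRestriction_mul, map_mul, hz, zero_mul]
  · rw [lineRestriction_mul, map_mul, hz, mul_zero]

theorem posSemidef_fromBlocks_diag {ι₁ ι₂ : Type} [Fintype ι₁] [Fintype ι₂]
    [DecidableEq ι₁] [DecidableEq ι₂]
    (M : Matrix ι₁ ι₁ ℝ) (N : Matrix ι₂ ι₂ ℝ) :
    (Matrix.fromBlocks M 0 0 N).PosSemidef ↔ M.PosSemidef ∧ N.PosSemidef := by
  constructor
  · intro h
    refine ⟨?_, ?_⟩
    · have := h.submatrix (Sum.inl : ι₁ → ι₁ ⊕ ι₂)
      have e : (Matrix.fromBlocks M 0 0 N).submatrix Sum.inl Sum.inl = M := by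
        ext i j; rfl
      rw [e] at this
      exact this
    · have := h.submatrix (Sum.inr : ι₂ → ι₁ ⊕ ι₂)
      have e : (Matrix.fromBlocks M 0 0 N).submatrix Sum.inr Sum.inr = N := by
        ext i j; rfl
      rw [e] at this
      exact this
  · rintro ⟨hM, hN⟩
    rw [Matrix.posSemidef_iff_dotProduct_mulVec] at hM hN ⊢
    refine ⟨?_, fun x => ?_⟩
    · have h1 := hM.1
      have h2 := hN.1
      rw [Matrix.IsHermitian, Matrix.fromBlocks_conjTranspose]
      simp only [Matrix.conjTranspose_zero]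
      rw [h1.eq, h2.eq]
    · have e1 := hM.2 (x ∘ Sum.inl)
      have e2 := hN.2 (x ∘ Sum.inr)
      rw [Matrix.fromBlocks_mulVec]
      simp only [Matrix.zero_mulVec, add_zero, zero_add]
      have : star x ⬝ᵥ Sum.elim (M.mulVec (x ∘ Sum.inl)) (N.mulVec (x ∘ Sum.inr))
          = star (x ∘ Sum.inl) ⬝ᵥ M.mulVec (x ∘ Sum.inl)
            + star (x ∘ Sum.inr) ⬝ᵥ N.mulVec (x ∘ Sum.inr) := by
        simp [dotProduct, Fintype.sum_sum_type]
      rw [this]
      exact add_nonneg e1 e2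

theorem shadow_inter {n : ℕ} (S T : Set (Fin n → ℝ))
    (hS : IsSpectrahedralShadow S) (hT : IsSpectrahedralShadow T) :
    IsSpectrahedralShadow (S ∩ T) := by
  obtain ⟨ι₁, κ₁, _, _, _, A0, A, B, hA0, hA, hB, rfl⟩ := hS
  obtain ⟨ι₂, κ₂, _, _, _, A0', A', B', hA0', hA', hB', rfl⟩ := hT
  refine ⟨ι₁ ⊕ ι₂, κ₁ ⊕ κ₂, inferInstance, inferInstance, inferInstance,
    Matrix.fromBlocks A0 0 0 A0', fun i => Matrix.fromBlocks (A i) 0 0 (A' i),
    Sum.elim (fun j => Matrix.fromBlocks (B j) 0 0 0) (fun j => Matrix.fromBlocks 0 0 0 (B' j)),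
    ?_, ?_, ?_, ?_⟩
  · rw [Matrix.IsSymm, Matrix.fromBlocks_transpose, hA0.eq, hA0'.eq]; simp
  · intro i
    rw [Matrix.IsSymm, Matrix.fromBlocks_transpose, (hA i).eq, (hA' i).eq]; simp
  · rintro (j | j)
    · simp only [Sum.elim_inl]
      rw [Matrix.IsSymm, Matrix.fromBlocks_transpose, (hB j).eq]; simp
    · simp only [Sum.elim_inr]
      rw [Matrix.IsSymm, Matrix.fromBlocks_transpose, (hB' j).eq]; simp
  · have key : ∀ (x : Fin n → ℝ) (u : κ₁ ⊕ κ₂ → ℝ),
        Matrix.fromBlocks A0 0 0 A0' + ∑ i, x i • Matrix.fromBlocks (A i) 0 0 (A' i)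
          + ∑ j, u j • Sum.elim (fun j => Matrix.fromBlocks (B j) 0 0 0)
              (fun j => Matrix.fromBlocks 0 0 0 (B' j)) j
        = Matrix.fromBlocks (A0 + ∑ i, x i • A i + ∑ j, u (Sum.inl j) • B j) 0 0
            (A0' + ∑ i, x i • A' i + ∑ j, u (Sum.inr j) • B' j) := by
      intro x u
      have h1 : ∑ i, x i • Matrix.fromBlocks (A i) 0 0 (A' i)
          = Matrix.fromBlocks (∑ i, x i • A i) 0 0 (∑ i, x i • A' i) := by
        ext (a | a) (b | b) <;> simp [Matrix.sum_apply]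
      have h2 : ∑ j, u j • Sum.elim (fun j => Matrix.fromBlocks (B j) 0 0 0)
              (fun j => Matrix.fromBlocks 0 0 0 (B' j)) j
          = Matrix.fromBlocks (∑ j, u (Sum.inl j) • B j) 0 0 (∑ j, u (Sum.inr j) • B' j) := by
        rw [Fintype.sum_sum_type]
        ext (a | a) (b | b) <;> simp [Matrix.sum_apply]
      rw [h1, h2, Matrix.fromBlocks_add, Matrix.fromBlocks_add]
      simp
    ext x
    simp only [Set.mem_inter_iff, Set.mem_ofPred_eq]
    constructor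
    · rintro ⟨⟨u, hu⟩, ⟨v, hv⟩⟩
      refine ⟨Sum.elim u v, ?_⟩
      rw [key, posSemidef_fromBlocks_diag]
      exact ⟨by simpa using hu, by simpa using hv⟩
    · rintro ⟨u, hu⟩
      rw [key, posSemidef_fromBlocks_diag] at hu
      exact ⟨⟨fun j => u (Sum.inl j), hu.1⟩, ⟨fun j => u (Sum.inr j), hu.2⟩⟩

/-- Hyperbolicity, hyperbolicity cones and spectrahedral shadows are compatible with products:
the projected Lax property passes from the factors of a hyperbolic polynomial to the product. -/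
theorem result {n : ℕ} (p q : MvPolynomial (Fin n) ℝ) (e : Fin n → ℝ) :
    (IsHyperbolic p e → IsHyperbolic q e → IsHyperbolic (p * q) e) ∧
    ((∃ d : ℕ, p.IsHomogeneous d) → (∃ d : ℕ, q.IsHomogeneous d) →
      0 < MvPolynomial.eval e p → 0 < MvPolynomial.eval e q →
      IsHyperbolic (p * q) e → IsHyperbolic p e ∧ IsHyperbolic q e) ∧
    cone (p * q) e = cone p e ∩ cone q e ∧
    (∀ S T : Set (Fin n → ℝ), IsSpectrahedralShadow S → IsSpectrahedralShadow T →
      IsSpectrahedralShadow (S ∩ T)) ∧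
    (IsSpectrahedralShadow (cone p e) → IsSpectrahedralShadow (cone q e) →
      IsSpectrahedralShadow (cone (p * q) e)) := by
  refine ⟨hyperbolic_mul p q e, hyperbolic_of_mul p q e, cone_mul p q e,
    fun S T => shadow_inter S T, fun h1 h2 => ?_⟩
  rw [cone_mul]
  exact shadow_inter _ _ h1 h2

end Vale.Agent.Results.P256.Products
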